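import Vale.Agent.P062.Bd.Game
import Vale.Agent.P062.Fam

namespace Vale.Agent.P062.Bd

def Av (s : ℕ) (A B : Finset Cell) : Prop := ∀ y, s.testBit (idx y) = true → y ∈ A ∧ y ∉ B

def Card (n c s : ℕ) : Prop :=
  ∀ A M B : Finset Cell, M.card + B.card + 2 * n ≤ A.card → Has c M → Av s A B → Win A n M B

theorem Card.weaken {n n' c c' s s' : ℕ} (h : Card n c s) (hn : n ≤ n') (hc : Sub c c')
    (hs : Sub s s') : Card n' c' s' :=
  fun A M B hA hM hB => (h A M B (by omega) (fun y hy => hM y (hc _ hy))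
    (fun y hy => hB y (hs _ hy))).mono hn

theorem card_step {d m r x : ℕ} (hx : x < 625)
    (h : ∀ (A M B : Finset Cell) y, M.card + B.card + 1 + 2 * d ≤ A.card →
      Has (Nat.lor m (bit x)) M → Av r A B → y ∉ M → Win A d M (insert y B)) :
    Card (d + 1) m (Nat.lor r (bit x)) := by
  intro A M B hA hM hB
  have hr : Av r A B := fun y hy => hB y (by rw [testBit_lor, hy, Bool.true_or])
  by_cases hxM : cell x ∈ M
  · obtain ⟨z, hzA, hz, hz'⟩ := exists_fresh_in (A := A) (M := M) (B := B) (by omega)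
    have hc := Finset.card_insert_le z M
    refine Or.inr ⟨z, hzA, hz, hz', fun y hy _ => h A _ B y (by omega) ?_ hr hy⟩
    refine (has_insert hx hM).mono ?_
    rw [Finset.insert_eq_of_mem hxM]
    exact Finset.subset_insert _ _
  · have hc := Finset.card_insert_le (cell x) M
    have h1 := hB (cell x) (by rw [idx_cell hx, testBit_lor, testBit_bit]; simp)
    exact Or.inr ⟨cell x, h1.1, hxM, h1.2,
      fun y hy _ => h A _ B y (by omega) (has_insert hx hM) hr hy⟩

theorem card_edge {o p f m : ℕ} (ho : o < 8) (hp : p < 525) (hp' : p % 25 ≤ 20) (hf : f < 625)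
    (h : Sub (Nat.shiftLeft (shape o) p) (Nat.lor m (bit f))) :
    Card 1 m (Nat.lor (Nat.shiftLeft (shape o) p) (bit f)) := by
  intro A M B _ hM hB
  have h1 : Owns (insert (cell f) M) :=
    owns_of_edge ho hp hp' fun y hy => has_insert hf hM y (h _ hy)
  by_cases hxM : cell f ∈ M
  · rw [Finset.insert_eq_of_mem hxM] at h1
    exact Or.inl h1
  · have h2 := hB (cell f) (by rw [idx_cell hf, testBit_lor, testBit_bit]; simp)
    exact Or.inr ⟨cell f, h2.1, hxM, h2.2, fun _ _ _ => h1⟩

theorem Win.image (sw fx fy : Bool) (t : Cell) {A : Finset Cell} :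
    ∀ {n : ℕ} {M B : Finset Cell}, Win A n M B →
    Win (A.image (gmap sw fx fy t)) n (M.image (gmap sw fx fy t)) (B.image (gmap sw fx fy t))
  | 0, _, _, h => Owns.image h sw fx fy t
  | _ + 1, _, _, Or.inl h => Or.inl (Owns.image h sw fx fy t)
  | n + 1, M, B, Or.inr ⟨x, hA, hx, hx', h⟩ => by
    have inj := gmap_inj sw fx fy t
    refine Or.inr ⟨gmap sw fx fy t x, Finset.mem_image_of_mem _ hA,
      by simpa [inj.eq_iff] using hx, by simpa [inj.eq_iff] using hx', ?_⟩
    rw [← Finset.image_insert]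
    intro y hy hy'
    obtain ⟨z, rfl⟩ := gmap_surj sw fx fy t y
    rw [← Finset.image_insert]
    exact Win.image sw fx fy t (h z (fun hz => hy (Finset.mem_image_of_mem _ hz))
      (fun hz => hy' (Finset.mem_image_of_mem _ hz)))

theorem Card.transport {n c s c' s' : ℕ} (h : Card n c s) (sw fx fy : Bool) (t : Cell)
    (hc : ∀ y, c.testBit (idx y) = true → c'.testBit (idx (gmap sw fx fy t y)) = true)
    (hs : ∀ y, s.testBit (idx y) = true → s'.testBit (idx (gmap sw fx fy t y)) = true) :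
    Card n c' s' := by
  intro A M B hA hM hB
  have inj := gmap_inj sw fx fy t
  have sur := gmap_surj sw fx fy t
  have e : ∀ X : Finset Cell, (X.preimage (gmap sw fx fy t) inj.injOn).image (gmap sw fx fy t)
      = X := by
    intro X
    ext z
    obtain ⟨y, rfl⟩ := sur z
    simp [inj.eq_iff]
  have ec : ∀ X : Finset Cell, (X.preimage (gmap sw fx fy t) inj.injOn).card = X.card := by
    intro X
    conv_rhs => rw [← e X]
    exact (Finset.card_image_of_injective _ inj).symm
  have := (h (A.preimage _ inj.injOn) (M.preimage _ inj.injOn) (B.preimage _ inj.injOn)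
    (by rw [ec, ec, ec]; exact hA)
    (fun y hy => Finset.mem_preimage.2 (hM _ (hc y hy)))
    (fun y hy => ⟨Finset.mem_preimage.2 (hB _ (hs y hy)).1,
      fun hy' => (hB _ (hs y hy)).2 (Finset.mem_preimage.1 hy')⟩)).image sw fx fy t
  rwa [e, e, e] at this

theorem card_mp {n c s : ℕ} (h : Card n c s) (sw fx fy : Bool) (a b : ℕ)
    (hc : (mp (tr sw fx fy a b) c).testBit 626 = false)
    (hs : (mp (tr sw fx fy a b) s).testBit 626 = false) :
    Card n (mp (tr sw fx fy a b) c) (mp (tr sw fx fy a b) s) := by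
  have key : ∀ m, (mp (tr sw fx fy a b) m).testBit 626 = false → ∀ y,
      m.testBit (idx y) = true → (mp (tr sw fx fy a b) m).testBit
        (idx (gmap sw fx fy ((a : ℤ) - 32, (b : ℤ) - 32) y)) = true := by
    intro m hm y hy
    obtain ⟨h0, h1⟩ := mp_spec _ _ hm _ hy
    have h2 : tr sw fx fy a b (idx y % 25) (idx y / 25) ≠ 626 := by
      intro h3
      rw [h3, hm] at h1
      exact absurd h1 (by simp)
    have h4 := tr_spec h2
    have h5 : (((idx y % 25 : ℕ) : ℤ), ((idx y / 25 : ℕ) : ℤ)) = y := cell_idx h0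
    rw [h5] at h4
    rw [h4]
    exact h1
  exact h.transport sw fx fy _ (key c hc) (key s hs)

def Valid : Tab → Prop
  | .nil => True
  | .leaf n c s _ => Card n c s
  | .node l r => Valid l ∧ Valid r

theorem get_spec (t : Tab) (k : ℕ → ℕ → ℕ → ℕ) (ht : Valid t) :
    ∀ i, t.get k i = poison ∨ ∃ n c s, Card n c s ∧ t.get k i = k n c s := by
  induction t with
  | nil => intro i; exact Or.inl rfl
  | leaf n c s code => intro i; exact Or.inr ⟨n, c, s, ht, rfl⟩
  | node l r ihl ihr =>
    intro i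
    have e : (Tab.node l r).get k i = @Bool.rec (fun _ => ℕ) (r.get k (Nat.shiftRight i 1))
      (l.get k (Nat.shiftRight i 1)) (Nat.beq (Nat.land i 1) 0) := rfl
    rw [e]
    cases Nat.beq (Nat.land i 1) 0
    · exact ihr ht.2 _
    · exact ihl ht.1 _

theorem edge1_spec {m o p f : ℕ} (ho : o < 8) (h : (edge1 m o p f).testBit 626 = false) :
    Card 1 m (edge1 m o p f) := by
  unfold edge1 edge2 at h ⊢
  obtain ⟨h1, e1, h⟩ := cp h
  obtain ⟨h2, e2, h⟩ := cp h
  obtain ⟨h3, e3, h⟩ := cp h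
  obtain ⟨h4, e4, h⟩ := cp h
  rw [e1, e2, e3, e4]
  exact card_edge ho (Nat.lt_succ_of_le (Nat.le_of_ble_eq_true h1)) (Nat.le_of_ble_eq_true h2)
    (Nat.lt_succ_of_le (Nat.le_of_ble_eq_true h3)) (sub_of_land (Nat.eq_of_beq_eq_true h4))

theorem edgeS_spec (code m : ℕ) (h : (edgeS code m).testBit 626 = false) :
    Card 1 m (edgeS code m) :=
  edge1_spec (Nat.lt_succ_of_le (Nat.and_le_right (m := 7))) h

theorem useCard_spec {m d n c s : ℕ} (hc : Card n c s)
    (h : (useCard m d n c s).testBit 626 = false) : Card d m (useCard m d n c s) := by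
  unfold useCard at h ⊢
  obtain ⟨h1, e1, h⟩ := cp h
  obtain ⟨h2, e2, h⟩ := cp h
  rw [e1, e2]
  exact hc.weaken (Nat.le_of_ble_eq_true h1) (sub_of_land (Nat.eq_of_beq_eq_true h2))
    fun _ h => h

theorem useMap_spec {m d n c s : ℕ} (hc : Card n c s) (sw fx fy : Bool) (a b : ℕ)
    (h : (useMap (tr sw fx fy a b) m d n c s).testBit 626 = false) :
    Card d m (useMap (tr sw fx fy a b) m d n c s) := by
  unfold useMap useMap1 at h ⊢
  obtain ⟨h2, e2, h⟩ := cp h
  rw [e2]
  have h3 := not_bit_of_le (Nat.le_of_ble_eq_true h2)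
  exact useCard_spec (card_mp hc sw fx fy a b h3 (cp (cp h).2.2).2.2) h

theorem get_ok {env : Tab} (henv : Valid env) {m d : ℕ} {k : ℕ → ℕ → ℕ → ℕ}
    (hk : ∀ n c s, Card n c s → (k n c s).testBit 626 = false → Card d m (k n c s)) (i : ℕ)
    (h : (env.get k i).testBit 626 = false) : Card d m (env.get k i) := by
  rcases get_spec env k henv i with h1 | ⟨n, c, s, hc, h1⟩
  · rw [h1, poison_bit] at h
    exact absurd h (by simp)
  · rw [h1] at h ⊢
    exact hk n c s hc h

theorem refS_spec {env : Tab} (henv : Valid env) (code m d : ℕ)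
    (h : (refS env code m d).testBit 626 = false) : Card d m (refS env code m d) := by
  unfold refS ref0 at h ⊢
  refine get_ok henv ?_ _ h
  cases Nat.beq (Nat.land (Nat.land code (nat_lit 1099511627775)) (nat_lit 4194304)) (nat_lit 0)
  · exact fun n c s hc h => useMap_spec hc _ _ _ _ _ h
  · exact fun n c s hc h => useCard_spec hc h

def FamOk (rec : ℕ → ℕ → ℕ → ℕ → ℕ → ℕ) : Prop :=
  ∀ code m d I U, (rec code m d I U).testBit 626 = false →
    Sub U (rec code m d I U) ∧ ∀ (A M B : Finset Cell) y, M.card + B.card + 1 + 2 * d ≤ A.card →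
      Has m M → Av (rec code m d I U) A B → y ∉ M →
      I.testBit (idx y) = true → Win A d M (insert y B)

theorem subS_spec {rec : ℕ → ℕ → ℕ → ℕ → ℕ → ℕ} (hrec : FamOk rec) {x code m d : ℕ} (hd : 1 ≤ d)
    (h : (subS rec x code m d).testBit 626 = false) : Card d m (subS rec x code m d) := by
  unfold subS at h ⊢
  obtain ⟨h1, e1, h⟩ := cp h
  rw [e1]
  unfold sub1 at h ⊢
  rw [testBit_lor, Bool.or_eq_false_iff] at h
  obtain ⟨d', rfl⟩ : ∃ d', d = d' + 1 := ⟨d - 1, by omega⟩
  exact card_step (Nat.lt_succ_of_le (Nat.le_of_ble_eq_true h1)) fun A M B y hA hM hB hy =>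
    (hrec _ _ _ _ _ h.1).2 A M B y hA hM hB hy (allBits_bit _ (idx_le y))

theorem member_ok {rec : ℕ → ℕ → ℕ → ℕ → ℕ → ℕ} (hrec : FamOk rec) {s rest m d I U : ℕ}
    (hs : s.testBit 626 = false → Card d m s)
    (h : (nxt rec rest m d I U s).testBit 626 = false) :
    Sub U (nxt rec rest m d I U s) ∧
      ∀ (A M B : Finset Cell) y, M.card + B.card + 1 + 2 * d ≤ A.card →
        Has m M → Av (nxt rec rest m d I U s) A B → y ∉ M →
        I.testBit (idx y) = true → Win A d M (insert y B) := by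
  unfold nxt at h ⊢
  obtain ⟨h1, h2⟩ := hrec _ _ _ _ _ h
  have h3 : Sub s (rec rest m d (Nat.land I s) (Nat.lor U s)) :=
    fun j hj => h1 j (by rw [testBit_lor, hj, Bool.or_true])
  refine ⟨fun j hj => h1 j (by rw [testBit_lor, hj, Bool.true_or]), 
    fun A M B y hA hM hB hy hI => ?_⟩
  cases hsy : s.testBit (idx y)
  · have h4 : s.testBit 626 = false := by
      cases h5 : s.testBit 626
      · rfl
      · rw [h3 _ h5] at h; exact absurd h (by simp)
    have hc := Finset.card_insert_le y B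
    refine hs h4 A M _ (by omega) hM fun z hz => ⟨(hB z (h3 _ hz)).1, fun hz' => ?_⟩
    rcases Finset.mem_insert.1 hz' with rfl | hz'
    · rw [hsy] at hz; exact absurd hz (by simp)
    · exact (hB z (h3 _ hz)).2 hz'
  · exact h2 A M B y hA hM hB hy (by rw [testBit_land, hI, hsy]; rfl)

theorem famStep_ok {env : Tab} (henv : Valid env) {rec : ℕ → ℕ → ℕ → ℕ → ℕ → ℕ}
    (hrec : FamOk rec) : FamOk (famStep env rec) := by
  intro code m d I U h
  unfold famStep at h ⊢
  cases h0 : Nat.beq code (nat_lit 0)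
  · rw [h0] at h
    obtain ⟨hd, ed, h⟩ := cp h
    have hd' : 1 ≤ d := Nat.le_of_ble_eq_true hd
    dsimp only
    rw [ed]
    unfold st123 at h ⊢
    cases h1 : Nat.beq (Nat.land code (nat_lit 2)) (nat_lit 0)
    · rw [h1] at h
      dsimp only at h ⊢
      unfold st23 at h ⊢
      cases h2 : Nat.beq (Nat.land code (nat_lit 1)) (nat_lit 0)
      · rw [h2] at h
        exact member_ok hrec (refS_spec henv code m d) h
      · rw [h2] at h
        exact member_ok hrec (subS_spec hrec hd') h
    · rw [h1] at h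
      exact member_ok hrec (fun hs => (edgeS_spec code m hs).weaken hd' (fun _ h => h)
        fun _ h => h) h
  · rw [h0] at h
    obtain ⟨h1, e1, h⟩ := cp h
    dsimp only
    rw [e1]
    exact ⟨fun _ h => h, fun A M B y _ hM _ hy hI =>
      absurd (hM y (sub_of_land (Nat.eq_of_beq_eq_true h1) _ hI)) hy⟩

theorem fam_ok {env : Tab} (henv : Valid env) (fuel : ℕ) : FamOk (fam env fuel) := by
  induction fuel with
  | zero => intro code m d I U h; exact absurd (h.symm.trans poison_bit) (by simp)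
  | succ n ih => exact famStep_ok henv ih

theorem leafOk_spec {env : Tab} (henv : Valid env) {n c s code : ℕ}
    (h : leafOk env n c s code = true) : Card n c s := by
  unfold leafOk at h
  obtain ⟨h1, h⟩ := cb h
  obtain ⟨h2, h⟩ := cb h
  unfold leaf1 at h
  have h4 := sub_of_land (Nat.eq_of_beq_eq_true h)
  have h5 := not_bit_of_le (Nat.le_of_ble_eq_true h2)
  refine (subS_spec (fam_ok henv _) (Nat.le_of_ble_eq_true h1) ?_).weaken le_rfl
    (fun _ h => h) h4
  cases h6 : Nat.testBit _ 626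
  · rfl
  · rw [h4 _ h6] at h5; exact absurd h5 (by simp)

theorem valid_of_check {env : Tab} (henv : Valid env) :
    ∀ {t : Tab}, env.check t = true → Valid t
  | .nil, _ => trivial
  | .leaf _ _ _ _, h => leafOk_spec henv h
  | .node l r, h => by
    have e : env.check (.node l r) =
      @Bool.rec (fun _ => Bool) false (env.check r) (env.check l) := rfl
    rw [e] at h
    exact ⟨valid_of_check henv (cb h).1, valid_of_check henv (cb h).2⟩

/-- The `k × k` board. -/
noncomputable def board (k : ℕ) : Finset Cell := Finset.Ico (0 : ℤ) k ×ˢ Finset.Ico (0 : ℤ) k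

theorem card_board (k : ℕ) : (board k).card = k * k := by simp [board]

theorem win_of_card {n s : ℕ} (k : ℕ) (h : Card n 0 s) (hk : 2 * n ≤ k * k)
    (hs : ∀ i < 626, s.testBit i = true → i < 625 ∧ i % 25 < k ∧ i / 25 < k) :
    Win (board k) n ∅ ∅ := by
  refine h _ ∅ ∅ (by rw [card_board]; simpa using hk) (fun y hy => by simp at hy)
    fun y hy => ⟨?_, Finset.notMem_empty y⟩
  obtain ⟨h1, h2, h3⟩ := hs _ (Nat.lt_succ_of_le (idx_le y)) hy
  rw [← cell_idx h1]
  simp only [board, cell, Finset.mem_product, Finset.mem_Ico]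
  omega

theorem final (k N : ℕ) (hW : Win (board k) (N + 1) ∅ ∅) (hk : 2 * N < k * k) :
    ∃ σ : List Cell → Cell,
      (∀ (b : ℕ → Cell) (n : ℕ), MakerLegal σ b n) ∧
      (∀ (b : ℕ → Cell), ∀ n < N + 1, 0 ≤ (makerMove σ b n).1 ∧ (makerMove σ b n).1 < k ∧
        0 ≤ (makerMove σ b n).2 ∧ (makerMove σ b n).2 < k) ∧
      ∀ b : ℕ → Cell, (∀ j < N, BreakerLegal σ b j) → MakerOwnsCopy σ b (N + 1) := by
  obtain ⟨σ, h1, h2, h3⟩ := strategy_of_win _ N hW
  refine ⟨σ, h1, fun b n hn => ?_, h3⟩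
  have := h2 b n (by rw [card_board]; omega)
  simp only [board, Finset.mem_product, Finset.mem_Ico] at this
  exact ⟨this.1.1, this.1.2, this.2.1, this.2.2⟩

end Vale.Agent.P062.Bd
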