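import Vale.Agent.P062.Game

namespace Vale.Agent.P062.Bd

open Classical

/-- Maker, to move in position `(M, B)` and claiming only cells of `A`, wins with at most `n`
further moves. -/
def Win (A : Finset Cell) : ℕ → Finset Cell → Finset Cell → Prop
  | 0, M, _ => Owns M
  | n + 1, M, B => Owns M ∨ ∃ x ∈ A, x ∉ M ∧ x ∉ B ∧
      ∀ y, y ∉ insert x M → y ∉ B → Win A n (insert x M) (insert y B)

theorem win_of_owns {M : Finset Cell} (h : Owns M) (A : Finset Cell) (n : ℕ) (B : Finset Cell) :
    Win A n M B := by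
  cases n with
  | zero => exact h
  | succ n => exact Or.inl h

theorem Win.succ {A : Finset Cell} : ∀ {n : ℕ} {M B : Finset Cell}, Win A n M B → Win A (n + 1) M B
  | 0, _, _, h => Or.inl h
  | _ + 1, _, _, Or.inl h => Or.inl h
  | _ + 1, _, _, Or.inr ⟨x, hA, hx, hx', h⟩ =>
    Or.inr ⟨x, hA, hx, hx', fun y hy hy' => Win.succ (h y hy hy')⟩

theorem Win.mono {A : Finset Cell} {n m : ℕ} {M B : Finset Cell} (h : Win A n M B) (hnm : n ≤ m) :
    Win A m M B := by
  induction hnm with
  | refl => exact h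
  | step _ ih => exact ih.succ

theorem exists_fresh_in {A M B : Finset Cell} (h : M.card + B.card < A.card) :
    ∃ x ∈ A, x ∉ M ∧ x ∉ B := by
  obtain ⟨x, hx, hx'⟩ := Finset.exists_mem_notMem_of_card_lt_card
    (lt_of_le_of_lt (Finset.card_union_le M B) h)
  exact ⟨x, hx, fun h => hx' (Finset.mem_union_left _ h), fun h => hx' (Finset.mem_union_right _ h)⟩

/-- One move of the extracted strategy. -/
noncomputable def pick (A : Finset Cell) (n : ℕ) (M B : Finset Cell) : Cell :=
  if h : ∃ x ∈ A, x ∉ M ∧ x ∉ B ∧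
      ∀ y, y ∉ insert x M → y ∉ B → Win A n (insert x M) (insert y B) then h.choose
  else if h : ∃ x ∈ A, x ∉ M ∧ x ∉ B then h.choose else (exists_fresh M B).choose

theorem pick_fresh (A : Finset Cell) (n : ℕ) (M B : Finset Cell) :
    pick A n M B ∉ M ∧ pick A n M B ∉ B := by
  unfold pick
  split_ifs with h h'
  · exact ⟨h.choose_spec.2.1, h.choose_spec.2.2.1⟩
  · exact h'.choose_spec.2
  · exact (exists_fresh M B).choose_spec

theorem pick_mem {A : Finset Cell} (n : ℕ) {M B : Finset Cell} (hc : M.card + B.card < A.card) :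
    pick A n M B ∈ A := by
  unfold pick
  split_ifs with h h'
  · exact h.choose_spec.1
  · exact h'.choose_spec.1
  · exact absurd (exists_fresh_in hc) h'

theorem pick_win {A : Finset Cell} {n : ℕ} {M B : Finset Cell} (h : Win A (n + 1) M B) :
    ∀ y, y ∉ insert (pick A n M B) M → y ∉ B →
      Win A n (insert (pick A n M B) M) (insert y B) := by
  rcases h with h | h
  · exact fun y _ _ => win_of_owns (h.mono (Finset.subset_insert _ _)) _ _ _
  · unfold pick
    rw [dif_pos h]
    exact h.choose_spec.2.2.2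

/-- Position reached after a reversed list of Breaker moves. -/
noncomputable def pos (A : Finset Cell) (N : ℕ) : List Cell → Finset Cell × Finset Cell
  | [] => (∅, ∅)
  | y :: l => (insert (pick A (N - 1 - l.length) (pos A N l).1 (pos A N l).2) (pos A N l).1,
      insert y (pos A N l).2)

noncomputable def strat (A : Finset Cell) (N : ℕ) (l : List Cell) : Cell :=
  pick A (N - 1 - l.length) (pos A N l.reverse).1 (pos A N l.reverse).2

noncomputable def posAt (A : Finset Cell) (N : ℕ) (b : ℕ → Cell) (n : ℕ) : Finset Cell × Finset Cell :=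
  pos A N ((List.range n).map b).reverse

theorem makerMove_strat (A : Finset Cell) (N : ℕ) (b : ℕ → Cell) (n : ℕ) :
    makerMove (strat A N) b n = pick A (N - 1 - n) (posAt A N b n).1 (posAt A N b n).2 := by
  simp [makerMove, strat, posAt]

theorem posAt_succ (A : Finset Cell) (N : ℕ) (b : ℕ → Cell) (n : ℕ) :
    posAt A N b (n + 1) = (insert (makerMove (strat A N) b n) (posAt A N b n).1,
      insert (b n) (posAt A N b n).2) := by
  rw [makerMove_strat]
  simp [posAt, List.range_succ, pos]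

theorem mem_posAt_fst (A : Finset Cell) (N : ℕ) (b : ℕ → Cell) (n : ℕ) (p : Cell) :
    p ∈ (posAt A N b n).1 ↔ ∃ k < n, makerMove (strat A N) b k = p := by
  induction n with
  | zero => simp [posAt, pos]
  | succ n ih =>
    rw [posAt_succ]
    simp only [Finset.mem_insert, ih]
    constructor
    · rintro (h | ⟨k, hk, h⟩)
      · exact ⟨n, Nat.lt_succ_self n, h.symm⟩
      · exact ⟨k, Nat.lt_succ_of_lt hk, h⟩
    · rintro ⟨k, hk, h⟩
      rcases Nat.lt_succ_iff_lt_or_eq.1 hk with hk | rfl
      · exact Or.inr ⟨k, hk, h⟩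
      · exact Or.inl h.symm

theorem mem_posAt_snd (A : Finset Cell) (N : ℕ) (b : ℕ → Cell) (n : ℕ) (p : Cell) :
    p ∈ (posAt A N b n).2 ↔ ∃ k < n, b k = p := by
  induction n with
  | zero => simp [posAt, pos]
  | succ n ih =>
    rw [posAt_succ]
    simp only [Finset.mem_insert, ih]
    constructor
    · rintro (h | ⟨k, hk, h⟩)
      · exact ⟨n, Nat.lt_succ_self n, h.symm⟩
      · exact ⟨k, Nat.lt_succ_of_lt hk, h⟩
    · rintro ⟨k, hk, h⟩
      rcases Nat.lt_succ_iff_lt_or_eq.1 hk with hk | rfl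
      · exact Or.inr ⟨k, hk, h⟩
      · exact Or.inl h.symm

theorem strat_legal (A : Finset Cell) (N : ℕ) (b : ℕ → Cell) (n : ℕ) : MakerLegal (strat A N) b n := by
  intro k hk
  have h := pick_fresh A (N - 1 - n) (posAt A N b n).1 (posAt A N b n).2
  rw [← makerMove_strat] at h
  constructor
  · intro he
    exact h.1 ((mem_posAt_fst A N b n _).2 ⟨k, hk, he.symm⟩)
  · intro he
    exact h.2 ((mem_posAt_snd A N b n _).2 ⟨k, hk, he.symm⟩)

theorem card_posAt (A : Finset Cell) (N : ℕ) (b : ℕ → Cell) (n : ℕ) :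
    (posAt A N b n).1.card ≤ n ∧ (posAt A N b n).2.card ≤ n := by
  induction n with
  | zero => simp [posAt, pos]
  | succ n ih =>
    rw [posAt_succ]
    exact ⟨(Finset.card_insert_le _ _).trans (Nat.succ_le_succ ih.1),
      (Finset.card_insert_le _ _).trans (Nat.succ_le_succ ih.2)⟩

theorem strat_mem (A : Finset Cell) (N : ℕ) (b : ℕ → Cell) (n : ℕ) (hn : 2 * n < A.card) :
    makerMove (strat A N) b n ∈ A := by
  rw [makerMove_strat]
  have := card_posAt A N b n
  exact pick_mem _ (by omega)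

theorem strat_inv (A : Finset Cell) (N : ℕ) (hW : Win A (N + 1) ∅ ∅) (b : ℕ → Cell) (n : ℕ)
    (hn : n ≤ N) (hb : ∀ k < n, BreakerLegal (strat A (N + 1)) b k) :
    Win A (N + 1 - n) (posAt A (N + 1) b n).1 (posAt A (N + 1) b n).2 := by
  induction n with
  | zero => simpa [posAt, pos] using hW
  | succ n ih =>
    have ih' := ih (Nat.le_of_succ_le hn) fun k hk => hb k (Nat.lt_succ_of_lt hk)
    have e : N + 1 - n = (N + 1 - 1 - n) + 1 := by omega
    rw [e] at ih'
    have h := pick_win ih'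
    rw [← makerMove_strat] at h
    have e2 : N + 1 - (n + 1) = N + 1 - 1 - n := by omega
    rw [posAt_succ, e2]
    have hl := hb n (Nat.lt_succ_self n)
    apply h
    · rw [Finset.mem_insert, mem_posAt_fst]
      rintro (h1 | ⟨k, hk, h1⟩)
      · exact hl.1 n le_rfl h1
      · exact hl.1 k hk.le h1.symm
    · rw [mem_posAt_snd]
      rintro ⟨k, hk, h1⟩
      exact hl.2 k hk h1.symm

theorem strategy_of_win (A : Finset Cell) (N : ℕ) (hW : Win A (N + 1) ∅ ∅) :
    ∃ σ : List Cell → Cell,
      (∀ (b : ℕ → Cell) (n : ℕ), MakerLegal σ b n) ∧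
      (∀ (b : ℕ → Cell) (n : ℕ), 2 * n < A.card → makerMove σ b n ∈ A) ∧
      ∀ b : ℕ → Cell, (∀ k < N, BreakerLegal σ b k) → MakerOwnsCopy σ b (N + 1) := by
  refine ⟨strat A (N + 1), strat_legal A (N + 1), strat_mem A (N + 1), fun b hb => ?_⟩
  have h := strat_inv A N hW b N le_rfl hb
  have e : N + 1 - N = (N + 1 - 1 - N) + 1 := by omega
  rw [e] at h
  have h2 := pick_win h
  rw [← makerMove_strat] at h2
  have hown : Owns (insert (makerMove (strat A (N + 1)) b N) (posAt A (N + 1) b N).1) := by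
    obtain ⟨y, hy, hy'⟩ := exists_fresh
      (insert (makerMove (strat A (N + 1)) b N) (posAt A (N + 1) b N).1) (posAt A (N + 1) b N).2
    have h3 := h2 y hy hy'
    have e3 : N + 1 - 1 - N = 0 := by omega
    rw [e3] at h3
    exact h3
  obtain ⟨C, hC, hp⟩ := hown
  refine ⟨C, hC, fun p hpC => ?_⟩
  have := hp p hpC
  rw [Finset.mem_insert, mem_posAt_fst] at this
  rcases this with h1 | ⟨k, hk, h1⟩
  · exact ⟨N, Nat.lt_succ_self N, h1.symm⟩
  · exact ⟨k, Nat.lt_succ_of_lt hk, h1⟩

end Vale.Agent.P062.Bd
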